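import Vale.Agent.P243.Defs

open MeasureTheory Set
open scoped ENNReal RealInnerProductSpace

noncomputable section

namespace Vale.Agent.P243

/-- The triple product. -/
def det3 (e f u : E3) : ℝ :=
  e 0 * (f 1 * u 2 - f 2 * u 1) - e 1 * (f 0 * u 2 - f 2 * u 0) + e 2 * (f 0 * u 1 - f 1 * u 0)

lemma inner_three (x y : E3) : ⟪x, y⟫ = x 0 * y 0 + x 1 * y 1 + x 2 * y 2 := by
  simp [PiLp.inner_apply, Fin.sum_univ_three]; ring

lemma norm_sq_three (x : E3) : ‖x‖ ^ 2 = x 0 ^ 2 + x 1 ^ 2 + x 2 ^ 2 := by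
  rw [← real_inner_self_eq_norm_sq, inner_three]; ring

abbrev perp (u : E3) : Submodule ℝ E3 := (Submodule.span ℝ {u})ᗮ

lemma coe_proj {u : E3} (hu : ‖u‖ = 1) (x : E3) :
    (((perp u).orthogonalProjectionOnto x : perp u) : E3) = x - ⟪u, x⟫ • u := by
  have h1 := Submodule.starProjection_orthogonal_val (K := Submodule.span ℝ {u}) x
  rw [Submodule.starProjection_unit_singleton ℝ hu] at h1
  rw [← h1]; rfl

/-- the affine parametrisation of a plane piece, followed by the projection -/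
def pmap₀ (u o e f : E3) (p : ℝ × ℝ) : perp u :=
  (perp u).orthogonalProjectionOnto (o + p.1 • e + p.2 • f)

/-- the same map, with values in three-space -/
def pmap (u o e f : E3) (p : ℝ × ℝ) : E3 := projPerp u (o + p.1 • e + p.2 • f)

lemma continuous_pmap (u o e f : E3) : Continuous (pmap u o e f) := by
  unfold pmap projPerp; fun_prop

instance factE3 : Fact (Module.finrank ℝ E3 = 2 + 1) := ⟨by simp⟩

lemma volume_pmap₀ {u : E3} (hu : ‖u‖ = 1) (o e f : E3) (S : Set (ℝ × ℝ)) :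
    volume (pmap₀ u o e f '' S) = ENNReal.ofReal |det3 e f u| * volume S := by
  have hu0 : u ≠ 0 := by rintro rfl; simp at hu
  let b : OrthonormalBasis (Fin 2) ℝ (perp u) := OrthonormalBasis.fromOrthogonalSpanSingleton 2 hu0
  let P := (perp u).orthogonalProjectionOnto
  -- the measurable equivalence to the coordinate plane
  let Ψ : perp u ≃ᵐ ℝ × ℝ :=
    (b.measurableEquiv.trans (MeasurableEquiv.toLp 2 (Fin 2 → ℝ)).symm).trans
      (MeasurableEquiv.finTwoArrow (α := ℝ))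
  have hΨ : MeasurePreserving Ψ volume volume :=
    (b.measurePreserving_measurableEquiv.trans
      (EuclideanSpace.volume_preserving_symm_measurableEquiv_toLp (Fin 2))).trans
      (volume_preserving_finTwoArrow ℝ)
  have hΨa : ∀ v : perp u, Ψ v = (⟪b 0, v⟫, ⟪b 1, v⟫) := by
    intro v
    simp [Ψ, OrthonormalBasis.measurableEquiv, MeasurableEquiv.finTwoArrow,
      OrthonormalBasis.repr_apply_apply]
  let L : (ℝ × ℝ) →ₗ[ℝ] (ℝ × ℝ) :=
    Matrix.toLin (Module.Basis.finTwoProd ℝ) (Module.Basis.finTwoProd ℝ)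
      !![⟪b 0, P e⟫, ⟪b 0, P f⟫; ⟪b 1, P e⟫, ⟪b 1, P f⟫]
  have hL : ∀ p : ℝ × ℝ, L p = (p.1 * ⟪b 0, P e⟫ + p.2 * ⟪b 0, P f⟫,
      p.1 * ⟪b 1, P e⟫ + p.2 * ⟪b 1, P f⟫) := by
    intro p
    simp only [L, Matrix.toLin_finTwoProd_apply]
    ext <;> simp <;> ring
  have hdet : LinearMap.det L = ⟪b 0, P e⟫ * ⟪b 1, P f⟫ - ⟪b 0, P f⟫ * ⟪b 1, P e⟫ := by
    simp [L, LinearMap.det_toLin, Matrix.det_fin_two]
  have himg : Ψ '' (pmap₀ u o e f '' S) = (fun q => Ψ (P o) + q) '' (L '' S) := by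
    rw [image_image, image_image]
    refine image_congr fun p _ => ?_
    rw [hΨa, hΨa, hL]
    simp only [pmap₀, map_add, map_smul, inner_add_right, inner_smul_right, Prod.mk_add_mk, P]
    ext <;> simp <;> ring
  have h1 : volume (pmap₀ u o e f '' S) = volume (Ψ '' (pmap₀ u o e f '' S)) := by
    rw [← hΨ.measure_preimage_equiv, Ψ.preimage_image]
  rw [h1, himg, image_add_left, measure_preimage_add, Measure.addHaar_image_linearMap, hdet]
  congr 2
  have hpar : ∀ x y : perp u, ⟪x, y⟫ = ⟪b 0, x⟫ * ⟪b 0, y⟫ + ⟪b 1, x⟫ * ⟪b 1, y⟫ := by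
    intro x y
    rw [← b.sum_inner_mul_inner x y, Fin.sum_univ_two, real_inner_comm (b 0) x,
      real_inner_comm (b 1) x]
  have hin : ∀ x y : E3, ⟪P x, P y⟫ = ⟪x, y⟫ - ⟪u, x⟫ * ⟪u, y⟫ := by
    intro x y
    have : ⟪P x, P y⟫ = ⟪((P x : perp u) : E3), ((P y : perp u) : E3)⟫ := rfl
    rw [this, coe_proj hu, coe_proj hu]
    simp only [inner_sub_left, inner_sub_right, inner_smul_left, inner_smul_right,
      real_inner_self_eq_norm_sq, hu, real_inner_comm u x]
    simp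
  apply sq_eq_sq_iff_abs_eq_abs _ _ |>.1
  have hG : (⟪b 0, P e⟫ * ⟪b 1, P f⟫ - ⟪b 0, P f⟫ * ⟪b 1, P e⟫) ^ 2
      = ⟪P e, P e⟫ * ⟪P f, P f⟫ - ⟪P e, P f⟫ ^ 2 := by
    rw [hpar (P e) (P e), hpar (P f) (P f), hpar (P e) (P f)]; ring
  rw [hG, hin, hin, hin]
  have hn := norm_sq_three u
  rw [hu] at hn
  simp only [inner_three, det3]
  linear_combination
    ((e 0 ^ 2 + e 1 ^ 2 + e 2 ^ 2) * (f 0 ^ 2 + f 1 ^ 2 + f 2 ^ 2)
      - (e 0 * f 0 + e 1 * f 1 + e 2 * f 2) ^ 2) * hn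

lemma volume_pmap {u : E3} (hu : ‖u‖ = 1) (o e f : E3) (S : Set (ℝ × ℝ)) :
    areaMeasure (pmap u o e f '' S) = ENNReal.ofReal |det3 e f u| * volume S := by
  have hu0 : u ≠ 0 := by rintro rfl; simp at hu
  have h1 : pmap u o e f '' S = (fun v : perp u => (v : E3)) '' (pmap₀ u o e f '' S) := by
    rw [image_image]
    refine image_congr fun p _ => ?_
    rw [pmap₀, coe_proj hu]; rfl
  have h2 : Module.finrank ℝ (perp u) = 2 := Submodule.finrank_orthogonal_span_singleton hu0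
  have h3 := InnerProductSpace.euclideanHausdorffMeasure_eq_volume (V := perp u)
  rw [h2] at h3
  rw [h1, areaMeasure, Isometry.euclideanHausdorffMeasure_image isometry_subtype_coe, h3,
    volume_pmap₀ hu]

/-- the closed triangle with apex `(h₀, m h₀)` and half opening `k` -/
def tri (h₀ h₁ m k : ℝ) : Set (ℝ × ℝ) :=
  {p | h₀ ≤ p.1 ∧ p.1 ≤ h₁ ∧ m * p.1 - k * (p.1 - h₀) ≤ p.2 ∧ p.2 ≤ m * p.1 + k * (p.1 - h₀)}

lemma isClosed_tri (h₀ h₁ m k : ℝ) : IsClosed (tri h₀ h₁ m k) := by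
  unfold tri
  simp only [ofPred_and]
  refine (isClosed_le (by fun_prop) (by fun_prop)).inter
    ((isClosed_le (by fun_prop) (by fun_prop)).inter
    ((isClosed_le (by fun_prop) (by fun_prop)).inter (isClosed_le (by fun_prop) (by fun_prop))))

lemma isCompact_tri (h₀ h₁ m k : ℝ) : IsCompact (tri h₀ h₁ m k) := by
  let M := (|m| + |k|) * (|h₀| + |h₁|) + |k| * |h₀|
  refine (isCompact_Icc (a := h₀) (b := h₁)).prod (isCompact_Icc (a := -M) (b := M)) |>.of_isClosed_subset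
    (isClosed_tri _ _ _ _) ?_
  rintro ⟨x, y⟩ ⟨h1, h2, h3, h4⟩
  simp only at h1 h2 h3 h4
  have hx : |x| ≤ |h₀| + |h₁| := by
    rw [abs_le]; constructor
    · linarith [neg_abs_le h₀, abs_nonneg h₁]
    · linarith [le_abs_self h₁, abs_nonneg h₀]
  have ha : |m * x| ≤ |m| * (|h₀| + |h₁|) := by
    rw [abs_mul]; exact mul_le_mul_of_nonneg_left hx (abs_nonneg _)
  have hb : |k * (x - h₀)| ≤ |k| * (|h₀| + |h₁|) + |k| * |h₀| := by
    rw [abs_mul, ← mul_add]
    exact mul_le_mul_of_nonneg_left ((abs_sub _ _).trans (by linarith)) (abs_nonneg _)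
  rw [abs_le] at ha hb
  refine ⟨⟨h1, h2⟩, ?_, ?_⟩ <;> simp only [M] <;> nlinarith

lemma volume_tri {h₀ h₁ m k : ℝ} (hh : h₀ ≤ h₁) (hk : 0 ≤ k) :
    volume (tri h₀ h₁ m k) = ENNReal.ofReal (k * (h₁ - h₀) ^ 2) := by
  have hm : MeasurableSet (tri h₀ h₁ m k) := (isClosed_tri _ _ _ _).measurableSet
  rw [Measure.volume_eq_prod, Measure.prod_apply hm]
  have h1 : (fun x : ℝ => volume (Prod.mk x ⁻¹' tri h₀ h₁ m k))
      = (Icc h₀ h₁).indicator (fun x => ENNReal.ofReal (2 * k * (x - h₀))) := by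
    ext x
    by_cases hx : x ∈ Icc h₀ h₁
    · rw [indicator_of_mem hx]
      have : Prod.mk x ⁻¹' tri h₀ h₁ m k = Icc (m * x - k * (x - h₀)) (m * x + k * (x - h₀)) := by
        ext y; simp [tri, hx.1, hx.2]
      rw [this, Real.volume_Icc]; congr 1; ring
    · rw [indicator_of_notMem hx]
      have : Prod.mk x ⁻¹' tri h₀ h₁ m k = ∅ := by
        ext y; simp only [tri, mem_preimage, mem_ofPred_eq, mem_empty_iff_false, iff_false]
        rintro ⟨a, b, -⟩; exact hx ⟨a, b⟩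
      rw [this, measure_empty]
  rw [h1, lintegral_indicator measurableSet_Icc, ← ofReal_integral_eq_lintegral_ofReal]
  · congr 1
    rw [integral_Icc_eq_integral_Ioc, ← intervalIntegral.integral_of_le hh,
      intervalIntegral.integral_const_mul, intervalIntegral.integral_sub (by simp) (by simp)]
    simp; ring
  · exact (by fun_prop : Continuous fun x : ℝ => 2 * k * (x - h₀)).integrableOn_Icc
  · refine (ae_restrict_iff' measurableSet_Icc).2 (Filter.Eventually.of_forall fun x hx => ?_)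
    have := hx.1
    simp only [Pi.zero_apply]
    have : 0 ≤ x - h₀ := by linarith
    positivity

end Vale.Agent.P243
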