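import Mathlib

open Set

noncomputable section

namespace Vale.Agent.P243

/-- every point of the quadrant lies on a sheared ray -/
lemma exists_param {c d : ℝ} (δ : ℝ) (hc : 0 ≤ c) (hd : 0 ≤ d) :
    ∃ s r : ℝ, 0 ≤ s ∧ s ≤ 1 ∧ 0 ≤ r ∧ c = r * s + δ * s ^ 2 ∧
      d = r * (1 - s) - δ * (1 - s) ^ 2 := by
  rcases hd.eq_or_lt with hd0 | hd0
  · subst hd0
    rcases le_or_gt δ c with h | h
    · exact ⟨1, c - δ, zero_le_one, le_rfl, by linarith, by ring, by ring⟩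
    · have hδ : 0 < δ := lt_of_le_of_lt hc h
      refine ⟨c / δ, δ - c, by positivity, (div_le_one hδ).2 h.le, by linarith, ?_, ?_⟩
      · field_simp; ring
      · field_simp; ring
  rcases hc.eq_or_lt with hc0 | hc0
  · subst hc0
    rcases le_or_gt (-δ) d with h | h
    · exact ⟨0, d + δ, le_rfl, zero_le_one, by linarith, by ring, by ring⟩
    · have hδ : 0 < -δ := lt_trans hd0 h
      have hδ' : δ ≠ 0 := by intro h0; rw [h0] at hδ; simp at hδ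
      refine ⟨1 + d / δ, -δ - d, ?_, ?_, by linarith, ?_, ?_⟩
      · have : d / (-δ) ≤ 1 := (div_le_one hδ).2 h.le
        rw [div_neg] at this; linarith
      · have : 0 ≤ d / (-δ) := by positivity
        rw [div_neg] at this; linarith
      · field_simp; ring
      · field_simp; ring
  have hcont : ContinuousOn (fun s : ℝ => d * s - c * (1 - s) + δ * s * (1 - s)) (Icc 0 1) := by
    fun_prop
  have hmem : (0 : ℝ) ∈ Ioo (d * 0 - c * (1 - 0) + δ * 0 * (1 - 0))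
      (d * 1 - c * (1 - 1) + δ * 1 * (1 - 1)) := by
    constructor <;> simp <;> linarith
  obtain ⟨s, ⟨hs0, hs1⟩, hs⟩ := intermediate_value_Ioo zero_le_one hcont hmem
  simp only at hs
  have e1 : c = (c + d - δ * (2 * s - 1)) * s + δ * s ^ 2 := by linear_combination -hs
  have e2 : d = (c + d - δ * (2 * s - 1)) * (1 - s) - δ * (1 - s) ^ 2 := by linear_combination hs
  refine ⟨s, c + d - δ * (2 * s - 1), hs0.le, hs1.le, ?_, e1, e2⟩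
  by_contra hr
  push Not at hr
  rcases le_total 0 δ with h | h
  · have h1 : (c + d - δ * (2 * s - 1)) * (1 - s) < 0 := mul_neg_of_neg_of_pos hr (by linarith)
    have h2 : 0 ≤ δ * (1 - s) ^ 2 := by positivity
    linarith
  · have h1 : (c + d - δ * (2 * s - 1)) * s < 0 := mul_neg_of_neg_of_pos hr hs0
    have h2 : δ * s ^ 2 ≤ 0 := mul_nonpos_of_nonpos_of_nonneg h (by positivity)
    linarith

/-- the height of the fan of rays -/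
def Rtop (ε K s : ℝ) : ℝ := 1 / 2 + ε ^ 2 * ((s - 1 / 2) ^ 2 / 4 + K * (s - 1 / 2) ^ 4)

lemma key_ineq {ε K z y : ℝ} (hε : 0 < ε) (hε1 : ε ≤ 1) (hK1 : 1 ≤ K)
    (hK : 9 * ε ^ 2 / 32 ≤ (K - 1) * (1 - ε / 2)) (hz : z ^ 2 ≤ 1 / 4) (hy : y ^ 2 ≤ 1 / 4) :
    0 < 1 + 2 * ε * z * y + ε ^ 2 * (1 / 4 + y ^ 2) * (1 / 4 - z ^ 2) ∧
    0 < 1 - 2 * ε * z * y + ε ^ 2 * (1 / 4 + z ^ 2) * (1 / 4 - y ^ 2) ∧
    (1 / 4 + y ^ 2) * z ^ 2 + (1 / 4 + z ^ 2) * y ^ 2 ≤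
      (z ^ 2 / 4 + K * z ^ 4) *
          (1 + 2 * ε * z * y + ε ^ 2 * (1 / 4 + y ^ 2) * (1 / 4 - z ^ 2)) +
        (y ^ 2 / 4 + K * y ^ 4) *
          (1 - 2 * ε * z * y + ε ^ 2 * (1 / 4 + z ^ 2) * (1 / 4 - y ^ 2)) := by
  have hzy1 : z * y ≤ 1 / 4 := by nlinarith [sq_nonneg (z - y)]
  have hzy2 : -(1 / 4) ≤ z * y := by nlinarith [sq_nonneg (z + y)]
  have t1 : 0 ≤ ε ^ 2 * (1 / 4 + y ^ 2) * (1 / 4 - z ^ 2) :=
    mul_nonneg (by positivity) (by linarith)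
  have t2 : 0 ≤ ε ^ 2 * (1 / 4 + z ^ 2) * (1 / 4 - y ^ 2) :=
    mul_nonneg (by positivity) (by linarith)
  have hα : 1 - ε / 2 ≤ 1 + 2 * ε * z * y + ε ^ 2 * (1 / 4 + y ^ 2) * (1 / 4 - z ^ 2) := by
    nlinarith
  have hβ : 1 - ε / 2 ≤ 1 - 2 * ε * z * y + ε ^ 2 * (1 / 4 + z ^ 2) * (1 / 4 - y ^ 2) := by
    nlinarith
  refine ⟨by linarith, by linarith, ?_⟩
  set α := 1 + 2 * ε * z * y + ε ^ 2 * (1 / 4 + y ^ 2) * (1 / 4 - z ^ 2) with hαd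
  set β := 1 - 2 * ε * z * y + ε ^ 2 * (1 / 4 + z ^ 2) * (1 / 4 - y ^ 2) with hβd
  have a1 : (K - 1) * (1 - ε / 2) * z ^ 4 ≤ (K - 1) * α * z ^ 4 :=
    mul_le_mul_of_nonneg_right (mul_le_mul_of_nonneg_left hα (by linarith)) (by positivity)
  have a2 : (K - 1) * (1 - ε / 2) * y ^ 4 ≤ (K - 1) * β * y ^ 4 :=
    mul_le_mul_of_nonneg_right (mul_le_mul_of_nonneg_left hβ (by linarith)) (by positivity)
  have a3 : 9 * ε ^ 2 / 32 * z ^ 4 ≤ (K - 1) * (1 - ε / 2) * z ^ 4 :=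
    mul_le_mul_of_nonneg_right hK (by positivity)
  have a4 : 9 * ε ^ 2 / 32 * y ^ 4 ≤ (K - 1) * (1 - ε / 2) * y ^ 4 :=
    mul_le_mul_of_nonneg_right hK (by positivity)
  have a5 : 0 ≤ (z ^ 2 / 4 + z ^ 4) * (ε ^ 2 * (1 / 4 + y ^ 2) * (1 / 4 - z ^ 2)) :=
    mul_nonneg (by positivity) t1
  have a6 : 0 ≤ (y ^ 2 / 4 + y ^ 4) * (ε ^ 2 * (1 / 4 + z ^ 2) * (1 / 4 - y ^ 2)) :=
    mul_nonneg (by positivity) t2
  have a7 : 0 ≤ (z ^ 2 - y ^ 2 + ε * (z * y) * (1 / 4 + z ^ 2 + y ^ 2)) ^ 2 := sq_nonneg _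
  have hM : (1 / 4 + z ^ 2 + y ^ 2) ^ 2 ≤ 9 / 16 := by
    have h0 : 0 ≤ 1 / 4 + z ^ 2 + y ^ 2 := by positivity
    nlinarith
  have hpq : (z * y) ^ 2 ≤ (z ^ 4 + y ^ 4) / 2 := by nlinarith [sq_nonneg (z ^ 2 - y ^ 2)]
  have a8 : (z * y) ^ 2 * (1 / 4 + z ^ 2 + y ^ 2) ^ 2 ≤ (z ^ 4 + y ^ 4) / 2 * (9 / 16) :=
    mul_le_mul hpq hM (by positivity) (by positivity)
  have a9 : ε ^ 2 * ((z * y) ^ 2 * (1 / 4 + z ^ 2 + y ^ 2) ^ 2)
      ≤ ε ^ 2 * ((z ^ 4 + y ^ 4) / 2 * (9 / 16)) := mul_le_mul_of_nonneg_left a8 (by positivity)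
  have id1 : (z ^ 2 / 4 + K * z ^ 4) * α + (y ^ 2 / 4 + K * y ^ 4) * β
      - ((1 / 4 + y ^ 2) * z ^ 2 + (1 / 4 + z ^ 2) * y ^ 2)
      = (z ^ 2 - y ^ 2 + ε * (z * y) * (1 / 4 + z ^ 2 + y ^ 2)) ^ 2
        - ε ^ 2 * ((z * y) ^ 2 * (1 / 4 + z ^ 2 + y ^ 2) ^ 2)
        + (z ^ 2 / 4 + z ^ 4) * (ε ^ 2 * (1 / 4 + y ^ 2) * (1 / 4 - z ^ 2))
        + (y ^ 2 / 4 + y ^ 4) * (ε ^ 2 * (1 / 4 + z ^ 2) * (1 / 4 - y ^ 2))
        + (K - 1) * α * z ^ 4 + (K - 1) * β * y ^ 4 := by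
    rw [hαd, hβd]; ring
  linarith

/-- a point of the tetrahedron is below the top of the lower fan or of the upper fan -/
lemma alternative {ε K a b c d r s r' s' : ℝ} (hε : 0 < ε) (hε1 : ε ≤ 1) (hK1 : 1 ≤ K)
    (hK : 9 * ε ^ 2 / 32 ≤ (K - 1) * (1 - ε / 2)) (hsum : a + b + c + d = 1)
    (hs0 : 0 ≤ s) (hs1 : s ≤ 1) (hs0' : 0 ≤ s') (hs1' : s' ≤ 1)
    (hc : c = r * s + ε * ((b - a) / 2) * s ^ 2)
    (hd : d = r * (1 - s) - ε * ((b - a) / 2) * (1 - s) ^ 2)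
    (ha : a = r' * s' + ε * ((c - d) / 2) * s' ^ 2)
    (hb : b = r' * (1 - s') - ε * ((c - d) / 2) * (1 - s') ^ 2) :
    r ≤ Rtop ε K s ∨ r' ≤ Rtop ε K s' := by
  by_contra hcon
  push Not at hcon
  obtain ⟨h1, h2⟩ := hcon
  obtain ⟨z, rfl⟩ : ∃ z, s = z + 1 / 2 := ⟨s - 1 / 2, by ring⟩
  obtain ⟨w, rfl⟩ : ∃ w, s' = w + 1 / 2 := ⟨s' - 1 / 2, by ring⟩
  have hz : z ^ 2 ≤ 1 / 4 := by nlinarith only [hs0, hs1]
  have hw : w ^ 2 ≤ 1 / 4 := by nlinarith only [hs0', hs1']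
  obtain ⟨hα, hβ, hE⟩ := key_ineq hε hε1 hK1 hK hz hw
  set α := 1 + 2 * ε * z * w + ε ^ 2 * (1 / 4 + w ^ 2) * (1 / 4 - z ^ 2) with hαd
  set β := 1 - 2 * ε * z * w + ε ^ 2 * (1 / 4 + z ^ 2) * (1 / 4 - w ^ 2) with hβd
  obtain ⟨x, hx⟩ : ∃ x, x = (b - a) / 2 := ⟨_, rfl⟩
  obtain ⟨y, hy⟩ : ∃ y, y = (c - d) / 2 := ⟨_, rfl⟩
  rw [← hx] at hc hd
  rw [← hy] at ha hb
  have e1 : y = r * z + ε * (1 / 4 + z ^ 2) * x := by
    linear_combination hy + (1 / 2) * hc - (1 / 2) * hd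
  have e2 : x = -(r' * w) - ε * (1 / 4 + w ^ 2) * y := by
    linear_combination hx + (1 / 2) * hb - (1 / 2) * ha
  have e3 : r + r' = 1 - 2 * ε * (x * z + y * w) := by
    linear_combination hsum - ha - hb - hc - hd
  have hD : r * α + r' * β = 1 + ε ^ 2 * (1 / 4 + z ^ 2) * (1 / 4 + w ^ 2) := by
    rw [hαd, hβd]
    linear_combination (1 + ε ^ 2 * (1 / 4 + z ^ 2) * (1 / 4 + w ^ 2)) * e3
      - 2 * ε * z * (e2 - ε * (1 / 4 + w ^ 2) * e1)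
      - 2 * ε * w * (e1 + ε * (1 / 4 + z ^ 2) * e2)
  have hR1 : Rtop ε K (z + 1 / 2) = 1 / 2 + ε ^ 2 * (z ^ 2 / 4 + K * z ^ 4) := by
    unfold Rtop; ring
  have hR2 : Rtop ε K (w + 1 / 2) = 1 / 2 + ε ^ 2 * (w ^ 2 / 4 + K * w ^ 4) := by
    unfold Rtop; ring
  rw [hR1] at h1
  rw [hR2] at h2
  have b1 := mul_lt_mul_of_pos_right h1 hα
  have b2 := mul_lt_mul_of_pos_right h2 hβ
  have b3 := mul_le_mul_of_nonneg_left hE (sq_nonneg ε)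
  have b4 : (α + β) / 2 = 1 + ε ^ 2 * (1 / 4 + z ^ 2) * (1 / 4 + w ^ 2)
      - ε ^ 2 * ((1 / 4 + w ^ 2) * z ^ 2 + (1 / 4 + z ^ 2) * w ^ 2) := by
    rw [hαd, hβd]; ring
  clear_value α β
  have b5 : (1 / 2 + ε ^ 2 * (z ^ 2 / 4 + K * z ^ 4)) * α
      + (1 / 2 + ε ^ 2 * (w ^ 2 / 4 + K * w ^ 4)) * β = (α + β) / 2
      + ε ^ 2 * ((z ^ 2 / 4 + K * z ^ 4) * α + (w ^ 2 / 4 + K * w ^ 4) * β) := by ring
  generalize ε ^ 2 * ((z ^ 2 / 4 + K * z ^ 4) * α + (w ^ 2 / 4 + K * w ^ 4) * β) = X1 at b3 b5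
  generalize ε ^ 2 * ((1 / 4 + w ^ 2) * z ^ 2 + (1 / 4 + z ^ 2) * w ^ 2) = X2 at b3 b4
  generalize (1 / 2 + ε ^ 2 * (z ^ 2 / 4 + K * z ^ 4)) * α = X3 at b1 b5
  generalize (1 / 2 + ε ^ 2 * (w ^ 2 / 4 + K * w ^ 4)) * β = X4 at b2 b5
  generalize ε ^ 2 * (1 / 4 + z ^ 2) * (1 / 4 + w ^ 2) = X5 at hD b4
  generalize r * α = X6 at hD b1
  generalize r' * β = X7 at hD b2
  linarith only [b1, b2, b3, b4, b5, hD]

lemma Rtop_le {ε K s t Δ : ℝ} (hε : 0 < ε) (hε1 : ε ≤ 1) (hK1 : 1 ≤ K) (hK2 : K ≤ 2)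
    (ht0 : 0 ≤ t) (hs1 : s ≤ 1) (hts : t ≤ s) (hst : s ≤ t + Δ) :
    Rtop ε K s ≤ Rtop ε K t + 2 * Δ := by
  unfold Rtop
  have hΔ : 0 ≤ Δ := by linarith
  have h1 : (s - 1 / 2) ^ 2 - (t - 1 / 2) ^ 2 ≤ Δ := by nlinarith
  have hs : (s - 1 / 2) ^ 2 ≤ 1 / 4 := by nlinarith
  have ht : (t - 1 / 2) ^ 2 ≤ 1 / 4 := by nlinarith
  have h2 : (s - 1 / 2) ^ 4 - (t - 1 / 2) ^ 4 ≤ Δ / 2 := by
    have e : (s - 1 / 2) ^ 4 - (t - 1 / 2) ^ 4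
        = ((s - 1 / 2) ^ 2 - (t - 1 / 2) ^ 2) * ((s - 1 / 2) ^ 2 + (t - 1 / 2) ^ 2) := by ring
    rw [e]
    have h3 : 0 ≤ (s - 1 / 2) ^ 2 + (t - 1 / 2) ^ 2 := by positivity
    calc _ ≤ Δ * ((s - 1 / 2) ^ 2 + (t - 1 / 2) ^ 2) := mul_le_mul_of_nonneg_right h1 h3
      _ ≤ Δ * (1 / 2) := mul_le_mul_of_nonneg_left (by linarith) hΔ
      _ = Δ / 2 := by ring
  have h4 : K * ((s - 1 / 2) ^ 4 - (t - 1 / 2) ^ 4) ≤ Δ := by
    calc _ ≤ K * (Δ / 2) := mul_le_mul_of_nonneg_left h2 (by linarith)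
      _ ≤ 2 * (Δ / 2) := mul_le_mul_of_nonneg_right hK2 (by linarith)
      _ = Δ := by ring
  have hε2 : ε ^ 2 ≤ 1 := by nlinarith
  have h5 : ε ^ 2 * (((s - 1 / 2) ^ 2 - (t - 1 / 2) ^ 2) / 4
      + K * ((s - 1 / 2) ^ 4 - (t - 1 / 2) ^ 4)) ≤ ε ^ 2 * (2 * Δ) :=
    mul_le_mul_of_nonneg_left (by linarith) (by positivity)
  have h6 : ε ^ 2 * (2 * Δ) ≤ 1 * (2 * Δ) := mul_le_mul_of_nonneg_right hε2 (by linarith)
  linarith

/-- the projected point lies in the thin triangle of its sector -/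
lemma sector {δ r s t Δ H : ℝ} (hδ : |δ| ≤ 1 / 2) (hr : 0 ≤ r) (hrH : r ≤ H + 2 * Δ)
    (hts : t ≤ s) (hst : s ≤ t + Δ) :
    -3 * Δ ≤ r + 2 * δ * (s - t) ∧ r + 2 * δ * (s - t) ≤ H + 3 * Δ ∧
    (t + Δ / 2) * (r + 2 * δ * (s - t)) - Δ / 2 * (r + 2 * δ * (s - t) - -3 * Δ)
      ≤ (r + 2 * δ * (s - t)) * s - δ * (s - t) ^ 2 ∧
    (r + 2 * δ * (s - t)) * s - δ * (s - t) ^ 2
      ≤ (t + Δ / 2) * (r + 2 * δ * (s - t)) + Δ / 2 * (r + 2 * δ * (s - t) - -3 * Δ) := by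
  obtain ⟨v, rfl⟩ : ∃ v, s = t + v := ⟨s - t, by ring⟩
  have hv0 : 0 ≤ v := by linarith
  have hv1 : v ≤ Δ := by linarith
  have hΔ : 0 ≤ Δ := by linarith
  rw [abs_le] at hδ
  have e : t + v - t = v := by ring
  rw [e]
  have b1 : -Δ ≤ 2 * δ * v := by nlinarith
  have b2 : 2 * δ * v ≤ Δ := by nlinarith
  have b3 : δ * v ^ 2 ≤ Δ ^ 2 / 2 := by nlinarith [mul_nonneg hv0 hv0, mul_le_mul hv1 hv1 hv0 hΔ]
  have b4 : -(Δ ^ 2 / 2) ≤ δ * v ^ 2 := by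
    nlinarith [mul_nonneg hv0 hv0, mul_le_mul hv1 hv1 hv0 hΔ]
  set h := r + 2 * δ * v with hh
  have b5 : -Δ ≤ h := by linarith
  refine ⟨by linarith, by linarith, ?_, ?_⟩
  · nlinarith [mul_nonneg hv0 (by linarith : 0 ≤ h + Δ), mul_le_mul hv1 le_rfl hΔ hΔ]
  · nlinarith [mul_nonneg (by linarith : 0 ≤ Δ - v) (by linarith : 0 ≤ h + Δ),
      mul_nonneg hv0 hΔ]

lemma exists_sector {N : ℕ} (hN : 0 < N) {s : ℝ} (hs0 : 0 ≤ s) (hs1 : s ≤ 1) :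
    ∃ i : Fin N, (i : ℝ) / N ≤ s ∧ s ≤ (i : ℝ) / N + 1 / N := by
  have hN' : (0 : ℝ) < N := by exact_mod_cast hN
  rcases hs1.eq_or_lt with h | h
  · refine ⟨⟨N - 1, by omega⟩, ?_, ?_⟩
    · simp only [h]; rw [div_le_one hN']; exact_mod_cast Nat.sub_le N 1
    · simp only [h]; rw [← add_div, le_div_iff₀ hN', Nat.cast_sub hN]; simp
  · have hlt : ⌊s * N⌋₊ < N := by
      rw [Nat.floor_lt (by positivity)]; nlinarith
    refine ⟨⟨⌊s * N⌋₊, hlt⟩, ?_, ?_⟩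
    · simp only; rw [div_le_iff₀ hN']; exact Nat.floor_le (by positivity)
    · simp only; rw [← add_div, le_div_iff₀ hN']; exact (Nat.lt_floor_add_one _).le

/-- upper Riemann sums with a small perturbation -/
lemma riemann (F : ℝ × ℝ → ℝ) (hF : Continuous F) {κ : ℝ} (hκ : 0 < κ) :
    ∃ N : ℕ, 0 < N ∧ ∑ i : Fin N, F ((i : ℝ) / N, 1 / N) * (1 / N)
      ≤ (∫ x in (0 : ℝ)..1, F (x, 0)) + κ := by
  have hc : IsCompact (Icc (0 : ℝ) 1 ×ˢ Icc (0 : ℝ) 1) := isCompact_Icc.prod isCompact_Icc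
  have huc := hc.uniformContinuousOn_of_continuous hF.continuousOn
  rw [Metric.uniformContinuousOn_iff] at huc
  obtain ⟨η, hη, h⟩ := huc κ hκ
  obtain ⟨n, hn⟩ := exists_nat_one_div_lt hη
  refine ⟨n + 1, Nat.succ_pos n, ?_⟩
  set N : ℕ := n + 1 with hNd
  have hN' : (0 : ℝ) < N := by positivity
  have hlt : (1 : ℝ) / N < η := by rw [hNd]; push_cast; exact hn
  have hN1 : (1 : ℝ) / N ≤ 1 := by
    rw [div_le_one hN']; exact_mod_cast Nat.succ_pos n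
  have hcx : Continuous fun x : ℝ => F (x, 0) := by fun_prop
  have hsum := intervalIntegral.sum_integral_adjacent_intervals (f := fun x : ℝ => F (x, 0))
    (μ := MeasureTheory.volume) (a := fun k : ℕ => (k : ℝ) / N) (n := N)
    (fun k _ => hcx.intervalIntegrable _ _)
  simp only [Nat.cast_zero, zero_div, div_self hN'.ne'] at hsum
  rw [← hsum, Finset.sum_range (fun k : ℕ => ∫ x in ((k : ℝ) / N)..(((k + 1 : ℕ) : ℝ) / N), F (x, 0))]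
  have hκs : κ = ∑ _i : Fin N, κ * (1 / N) := by
    simp; field_simp
  rw [hκs, ← Finset.sum_add_distrib]
  refine Finset.sum_le_sum fun i _ => ?_
  have hi : ((i : ℕ) : ℝ) + 1 ≤ N := by exact_mod_cast i.2
  have hle : ((i : ℕ) : ℝ) / N ≤ (((i : ℕ) + 1 : ℕ) : ℝ) / N := by
    push_cast; gcongr; linarith
  have hlen : (((i : ℕ) + 1 : ℕ) : ℝ) / N - ((i : ℕ) : ℝ) / N = 1 / N := by
    push_cast; ring
  have hmono := intervalIntegral.integral_mono_on (μ := MeasureTheory.volume)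
    (f := fun _ : ℝ => F ((i : ℝ) / N, 1 / N) - κ) (g := fun x : ℝ => F (x, 0)) hle
    (by simp) (hcx.intervalIntegrable _ _) (by
      intro x hx
      have hx0 : 0 ≤ x := le_trans (by positivity) hx.1
      have hx1 : x ≤ 1 := le_trans hx.2 (by push_cast; rw [div_le_one hN']; exact hi)
      have hi0 : (0 : ℝ) ≤ (i : ℝ) / N := by positivity
      have hi1 : (i : ℝ) / N ≤ 1 := le_trans hx.1 hx1
      have hd : dist (((i : ℝ) / N, 1 / N) : ℝ × ℝ) (x, 0) < η := by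
        rw [Prod.dist_eq, max_lt_iff]
        constructor
        · simp only [Real.dist_eq]
          rw [abs_sub_comm, abs_of_nonneg (by linarith [hx.1])]
          linarith [hx.2]
        · simp only [Real.dist_eq, sub_zero]
          rw [abs_of_nonneg (by positivity)]; exact hlt
      have := h _ ⟨⟨hi0, hi1⟩, ⟨by positivity, hN1⟩⟩ _ ⟨⟨hx0, hx1⟩, ⟨le_rfl, zero_le_one⟩⟩ hd
      rw [Real.dist_eq, abs_lt] at this
      linarith [this.2])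
  rw [intervalIntegral.integral_const, hlen, smul_eq_mul] at hmono
  linarith

end Vale.Agent.P243
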