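import Mathlib

/-!
Definitions for Bang's cylinder covering problem in Euclidean three-space.
-/

open MeasureTheory
open scoped ENNReal

noncomputable section

namespace Vale.Agent.P243

/-- Euclidean three-space. -/
abbrev E3 : Type := EuclideanSpace ℝ (Fin 3)

/-- A convex body: compact, convex, with nonempty interior. -/
def IsConvexBody (K : Set E3) : Prop :=
  IsCompact K ∧ Convex ℝ K ∧ (interior K).Nonempty

/-- Planar area: the two-dimensional Hausdorff measure of Mathlib, normalised so that it is the
Lebesgue measure on every Euclidean plane. -/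
def areaMeasure : Measure E3 := Measure.euclideanHausdorffMeasure 2

/-- For a unit vector `u`, the orthogonal projection onto the plane orthogonal to `u`. -/
def projPerp (u x : E3) : E3 := x - inner ℝ u x • u

/-- A cylinder: a unit direction and a Lebesgue measurable base of finite area in the plane
orthogonal to the direction. -/
structure Cylinder where
  dir : E3
  norm_dir : ‖dir‖ = 1
  base : Set E3
  base_perp : ∀ b ∈ base, inner ℝ dir b = 0
  base_measurable : NullMeasurableSet base areaMeasure
  base_finite : areaMeasure base ≠ ⊤

/-- The point set `B + ℝ u` of a cylinder. -/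
def Cylinder.carrier (C : Cylinder) : Set E3 :=
  {x | ∃ b ∈ C.base, ∃ t : ℝ, x = b + t • C.dir}

/-- The area of the base of a cylinder. -/
def Cylinder.area (C : Cylinder) : ℝ≥0∞ := areaMeasure C.base

/-- The area of the orthogonal projection of `K` onto the plane orthogonal to `u`. -/
def projArea (K : Set E3) (u : E3) : ℝ≥0∞ := areaMeasure (projPerp u '' K)

/-- The smallest area of an orthogonal projection of `K` onto a plane. -/
def minArea (K : Set E3) : ℝ≥0∞ := ⨅ (u : E3) (_ : ‖u‖ = 1), projArea K u

/-- The finite family `C` of cylinders covers `K`. -/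
def Covers {m : ℕ} (C : Fin m → Cylinder) (K : Set E3) : Prop :=
  K ⊆ ⋃ i, (C i).carrier

/-- The total base area of a finite family of cylinders. -/
def totalArea {m : ℕ} (C : Fin m → Cylinder) : ℝ≥0∞ := ∑ i, (C i).area

/-- The directionwise relative area of a finite family of cylinders with respect to `K`. -/
def relArea {m : ℕ} (C : Fin m → Cylinder) (K : Set E3) : ℝ≥0∞ :=
  ∑ i, (C i).area / projArea K (C i).dir

/-- The constant `c₃`. -/
def cThree : ℝ≥0∞ :=
  ⨅ (K : Set E3) (_ : IsConvexBody K) (m : ℕ) (C : Fin m → Cylinder) (_ : Covers C K),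
    totalArea C / minArea K

/-- The constant `r₃`. -/
def rThree : ℝ≥0∞ :=
  ⨅ (K : Set E3) (_ : IsConvexBody K) (m : ℕ) (C : Fin m → Cylinder) (_ : Covers C K),
    relArea C K

/-- The regular tetrahedron with vertices at four alternate vertices of the cube `[-1,1]³`. -/
def tet : Set E3 :=
  convexHull ℝ {!₂[1, 1, 1], !₂[1, -1, -1], !₂[-1, 1, -1], !₂[-1, -1, 1]}

end Vale.Agent.P243
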