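import Vale.Agent.P243.Main

open MeasureTheory Set
open scoped ENNReal

noncomputable section

namespace Vale.Agent.P243

lemma int_mono (k : ℕ) :
    ∫ x in (0 : ℝ)..1, (x - 1 / 2) ^ (2 * k) = 1 / (4 ^ k * (2 * k + 1)) := by
  rw [intervalIntegral.integral_comp_sub_right (fun x : ℝ => x ^ (2 * k)), integral_pow]
  have h1 : (1 - 1 / 2 : ℝ) ^ (2 * k + 1) = 1 / 2 * (1 / 4 ^ k) := by
    rw [pow_succ, pow_mul, show ((1 : ℝ) - 1 / 2) ^ 2 = 1 / 4 by norm_num, one_div_pow]; ring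
  have h2 : (0 - 1 / 2 : ℝ) ^ (2 * k + 1) = -(1 / 2 * (1 / 4 ^ k)) := by
    rw [pow_succ, pow_mul, show ((0 : ℝ) - 1 / 2) ^ 2 = 1 / 4 by norm_num, one_div_pow]; ring
  rw [h1, h2]
  push_cast
  field_simp
  ring

lemma int_poly (c : ℕ → ℝ) (n : ℕ) :
    ∫ x in (0 : ℝ)..1, ∑ k ∈ Finset.range n, c k * (x - 1 / 2) ^ (2 * k)
      = ∑ k ∈ Finset.range n, c k * (1 / (4 ^ k * (2 * k + 1))) := by
  rw [intervalIntegral.integral_finsetSum]
  · refine Finset.sum_congr rfl fun k _ => ?_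
    rw [intervalIntegral.integral_const_mul, int_mono]
  · intro k _
    exact (by fun_prop : Continuous fun x : ℝ => c k * (x - 1 / 2) ^ (2 * k)).intervalIntegrable _ _

def vf (t : ℝ) : ℝ := (1 / 3) ^ 2 * (etaf t ^ 2 + 2 * (t - 1 / 2) ^ 2)

def FE (q : ℝ × ℝ) : ℝ :=
  (Rtop (1 / 3) (83 / 80) q.1 + 6 * q.2) ^ 2 * (1 - vf q.1 / 2 + 3 / 8 * vf q.1 ^ 2)

def cE (k : ℕ) : ℝ := [55105 / 221184, -13295 / 1990656, 471727 / 4478976, -645577 / 143327232,
  63873109 / 5733089280, 58885 / 71663616, 12163 / 35831808, 7553 / 22394880,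
  6889 / 111974400].getD k 0

lemma int_FE : ∫ x in (0 : ℝ)..1, FE (x, 0) ≤ 24990 / 100000 - 1 / 1000000 := by
  have : ∀ x : ℝ, FE (x, 0) = ∑ k ∈ Finset.range 9, cE k * (x - 1 / 2) ^ (2 * k) := by
    intro x
    simp only [FE, Rtop, vf, etaf, cE, Finset.sum_range_succ, Finset.sum_range_zero,
      List.getD_cons_zero, List.getD_cons_succ]
    generalize x - 1 / 2 = z
    ring
  simp only [this]
  rw [int_poly]
  simp only [cE, Finset.sum_range_succ, Finset.sum_range_zero,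
      List.getD_cons_zero, List.getD_cons_succ]
  norm_num

lemma inv_norm_le (t : ℝ) :
    4 / ‖wL (1 / 3) t‖ ≤ 2 * √2 * (1 - vf t / 2 + 3 / 8 * vf t ^ 2) := by
  have hn : 0 < ‖wL (1 / 3) t‖ := norm_pos_iff.2 (wL_ne _ t)
  have h2 : ‖wL (1 / 3) t‖ ^ 2 = 2 * (1 + vf t) := norm_wL_sq _ t
  have hv : 0 ≤ vf t := by unfold vf; positivity
  generalize vf t = v at h2 hv
  generalize ‖wL (1 / 3) t‖ = n at hn h2
  have hG : 0 < 1 - v / 2 + 3 / 8 * v ^ 2 := by nlinarith [sq_nonneg (v - 2 / 3)]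
  rw [div_le_iff₀ hn]
  refine (pow_le_pow_iff_left₀ (by norm_num) (by positivity) two_ne_zero).1 ?_
  have h3 : √2 ^ 2 = 2 := Real.sq_sqrt (by norm_num)
  rw [mul_pow, mul_pow, mul_pow, h3, h2]
  have h4 : 0 ≤ v ^ 3 * (40 - 15 * v + 9 * v ^ 2) :=
    mul_nonneg (by positivity) (by nlinarith [sq_nonneg (v - 5 / 6)])
  nlinarith

lemma euclid : ∃ (m : ℕ) (C : Fin m → Cylinder), Covers C tet ∧
    totalArea C ≤ 2499 / 5000 * minArea tet := by
  obtain ⟨N, hN, hs⟩ := riemann FE (by unfold FE Rtop vf etaf; fun_prop)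
    (by norm_num : (0 : ℝ) < 1 / 1000000)
  refine ⟨N + N, fam (1 / 3) (83 / 80) N,
    covers_fam (by norm_num) (by norm_num) (by norm_num) (by norm_num) (by norm_num) hN, ?_⟩
  rw [totalArea_fam (by norm_num), minArea_tet]
  have e : (2499 / 5000 : ℝ≥0∞) = ENNReal.ofReal (2499 / 5000) := by
    rw [ENNReal.ofReal_div_of_pos (by norm_num)]; simp
  rw [e, ← ENNReal.ofReal_mul (by norm_num)]
  refine ENNReal.ofReal_le_ofReal ?_
  have h1 : ∑ i : Fin N, aval (1 / 3) (83 / 80) ((i : ℝ) / N) (1 / N)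
      ≤ 2 * √2 * ∑ i : Fin N, FE ((i : ℝ) / N, 1 / N) * (1 / N) := by
    rw [Finset.mul_sum]
    refine Finset.sum_le_sum fun i _ => ?_
    have h2 := inv_norm_le ((i : ℝ) / N)
    have h3 : 0 ≤ (1 / N : ℝ) * (Rtop (1 / 3) (83 / 80) ((i : ℝ) / N) + 6 * (1 / N)) ^ 2 := by
      positivity
    have h4 := mul_le_mul_of_nonneg_left h2 h3
    refine le_trans (le_of_eq ?_) (h4.trans (le_of_eq ?_))
    · unfold aval; ring
    · unfold FE; ring
  have h5 := int_FE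
  have h6 : ∑ i : Fin N, FE ((i : ℝ) / N, 1 / N) * (1 / N) ≤ 24990 / 100000 := by linarith
  have h7 := mul_le_mul_of_nonneg_left h6 (by positivity : 0 ≤ 2 * √2)
  linarith

def FR (q : ℝ × ℝ) : ℝ :=
  (Rtop (4 / 5) (13 / 10) q.1 + 6 * q.2) ^ 2 *
    (5 / 6 - 5 / 9 * (q.1 - 1 / 2) ^ 2 + 10 / 27 * (q.1 - 1 / 2) ^ 4)

def cR (k : ℕ) : ℝ := [5 / 24, -1 / 180, 4849 / 6750, -3296 / 16875, 62992 / 84375,
  -24128 / 84375, 21632 / 84375].getD k 0

lemma int_FR : ∫ x in (0 : ℝ)..1, FR (x, 0) ≤ 217 / 1000 - 1 / 10000 := by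
  have : ∀ x : ℝ, FR (x, 0) = ∑ k ∈ Finset.range 7, cR k * (x - 1 / 2) ^ (2 * k) := by
    intro x
    simp only [FR, Rtop, cR, Finset.sum_range_succ, Finset.sum_range_zero,
      List.getD_cons_zero, List.getD_cons_succ]
    generalize x - 1 / 2 = z
    ring
  simp only [this]
  rw [int_poly]
  simp only [cR, Finset.sum_range_succ, Finset.sum_range_zero,
      List.getD_cons_zero, List.getD_cons_succ]
  norm_num

lemma relative : ∃ (m : ℕ) (C : Fin m → Cylinder), Covers C tet ∧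
    relArea C tet ≤ 217 / 500 := by
  obtain ⟨N, hN, hs⟩ := riemann FR (by unfold FR Rtop; fun_prop)
    (by norm_num : (0 : ℝ) < 1 / 10000)
  refine ⟨N + N, fam (4 / 5) (13 / 10) N,
    covers_fam (by norm_num) (by norm_num) (by norm_num) (by norm_num) (by norm_num) hN, ?_⟩
  refine (relArea_fam (by norm_num) (by norm_num) (by norm_num) N).trans ?_
  have e : (217 / 500 : ℝ≥0∞) = ENNReal.ofReal (217 / 500) := by
    rw [ENNReal.ofReal_div_of_pos (by norm_num)]; simp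
  rw [e]
  refine ENNReal.ofReal_le_ofReal ?_
  have h1 : ∑ i : Fin N, (Rtop (4 / 5) (13 / 10) ((i : ℝ) / N) + 6 * (1 / N)) ^ 2
        / (1 + 4 / 5 * etaf ((i : ℝ) / N)) * (1 / N)
      ≤ ∑ i : Fin N, FR ((i : ℝ) / N, 1 / N) * (1 / N) := by
    refine Finset.sum_le_sum fun i _ => ?_
    refine mul_le_mul_of_nonneg_right ?_ (by positivity)
    unfold FR etaf
    simp only
    rw [div_eq_mul_one_div]
    refine mul_le_mul_of_nonneg_left ?_ (by positivity)
    generalize (i : ℝ) / N - 1 / 2 = z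
    rw [div_le_iff₀ (by positivity)]
    have : 0 ≤ z ^ 6 := by positivity
    nlinarith
  have h5 := int_FR
  linarith

lemma minArea_ne_zero : minArea tet ≠ 0 := by
  rw [minArea_tet]; simp

lemma minArea_ne_top : minArea tet ≠ ⊤ := by
  rw [minArea_tet]; exact ENNReal.ofReal_ne_top

lemma lt_half_aux {a : ℕ} {b : ℕ} (h : 2 * a < b) : ((a : ℝ≥0∞) / b) < 1 / 2 := by
  have hb : (b : ℝ≥0∞) ≠ 0 := by
    have : b ≠ 0 := by omega
    exact_mod_cast this
  rw [ENNReal.div_lt_iff (Or.inl hb) (Or.inl (by simp)), one_div, mul_comm,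
    ← div_eq_mul_inv, ENNReal.lt_div_iff_mul_lt (Or.inl (by simp)) (Or.inl (by simp))]
  exact_mod_cast (by omega : a * 2 < b)

theorem main :
    IsConvexBody tet ∧ minArea tet = ENNReal.ofReal (2 * √2) ∧
    (∃ (m : ℕ) (C : Fin m → Cylinder), Covers C tet ∧
      totalArea C ≤ 2499 / 5000 * minArea tet) ∧
    (∃ (m : ℕ) (C : Fin m → Cylinder), Covers C tet ∧ relArea C tet ≤ 217 / 500) ∧
    (¬ ∀ K : Set E3, IsConvexBody K → ∀ (m : ℕ) (C : Fin m → Cylinder), Covers C K →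
      1 / 2 * minArea K ≤ totalArea C) ∧
    (¬ ∀ K : Set E3, IsConvexBody K → ∀ (m : ℕ) (C : Fin m → Cylinder), Covers C K →
      1 / 2 ≤ relArea C K) ∧
    cThree ≤ 2499 / 5000 ∧ rThree ≤ 217 / 500 := by
  obtain ⟨m, C, hC, hA⟩ := euclid
  obtain ⟨m', C', hC', hA'⟩ := relative
  refine ⟨isConvexBody_tet, minArea_tet, ⟨m, C, hC, hA⟩, ⟨m', C', hC', hA'⟩, ?_, ?_, ?_, ?_⟩
  · intro h
    have h1 := (h tet isConvexBody_tet m C hC).trans hA
    have h2 : (2499 / 5000 : ℝ≥0∞) < 1 / 2 := by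
      exact_mod_cast lt_half_aux (a := 2499) (b := 5000) (by norm_num)
    exact absurd h1 (not_le.2 (ENNReal.mul_lt_mul_left minArea_ne_zero minArea_ne_top h2))
  · intro h
    have h1 := (h tet isConvexBody_tet m' C' hC').trans hA'
    have h2 : (217 / 500 : ℝ≥0∞) < 1 / 2 := by
      exact_mod_cast lt_half_aux (a := 217) (b := 500) (by norm_num)
    exact absurd h1 (not_le.2 h2)
  · refine (iInf₂_le tet isConvexBody_tet).trans ((iInf_le _ m).trans ((iInf₂_le C hC).trans ?_))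
    exact ENNReal.div_le_of_le_mul hA
  · exact (iInf₂_le tet isConvexBody_tet).trans ((iInf_le _ m').trans ((iInf₂_le C' hC').trans hA'))

end Vale.Agent.P243
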