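import Vale.Agent.P243.Tet
import Vale.Agent.P243.Cover

open MeasureTheory Set
open scoped ENNReal RealInnerProductSpace

noncomputable section

namespace Vale.Agent.P243

lemma norm_unit {w : E3} (hw : w ≠ 0) : ‖(‖w‖⁻¹ • w : E3)‖ = 1 := norm_smul_inv_norm hw

lemma det3_smul (e f w : E3) (c : ℝ) : det3 e f (c • w) = c * det3 e f w := by
  simp only [det3, PiLp.smul_apply, smul_eq_mul]; ring

lemma volume_pmap_dir {w : E3} (hw : w ≠ 0) (o e f : E3) (S : Set (ℝ × ℝ)) :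
    areaMeasure (pmap (‖w‖⁻¹ • w) o e f '' S) = ENNReal.ofReal (|det3 e f w| / ‖w‖) * volume S := by
  rw [volume_pmap (norm_unit hw), det3_smul, abs_mul, abs_inv, abs_norm, div_eq_inv_mul]

/-- the cylinder in direction `w` over a compact piece of a parametrised plane -/
def mkCyl (o e f w : E3) (hw : w ≠ 0) (S : Set (ℝ × ℝ)) (hS : IsCompact S) : Cylinder where
  dir := ‖w‖⁻¹ • w
  norm_dir := norm_unit hw
  base := pmap (‖w‖⁻¹ • w) o e f '' S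
  base_perp := by
    rintro _ ⟨p, -, rfl⟩
    rw [pmap, projPerp, inner_sub_right, inner_smul_right, real_inner_self_eq_norm_sq,
      norm_unit hw]
    ring
  base_measurable := (hS.image (continuous_pmap _ _ _ _)).measurableSet.nullMeasurableSet
  base_finite := by
    rw [volume_pmap_dir hw]
    exact ENNReal.mul_ne_top ENNReal.ofReal_ne_top hS.measure_lt_top.ne

lemma mkCyl_area (o e f w : E3) (hw : w ≠ 0) (S : Set (ℝ × ℝ)) (hS : IsCompact S) :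
    (mkCyl o e f w hw S hS).area = ENNReal.ofReal (|det3 e f w| / ‖w‖) * volume S :=
  volume_pmap_dir hw o e f S

lemma mem_mkCyl (o e f w : E3) (hw : w ≠ 0) (S : Set (ℝ × ℝ)) (hS : IsCompact S) {p : ℝ × ℝ}
    (hp : p ∈ S) (τ : ℝ) : o + p.1 • e + p.2 • f + τ • w ∈ (mkCyl o e f w hw S hS).carrier := by
  refine ⟨pmap (‖w‖⁻¹ • w) o e f p, ⟨p, hp, rfl⟩,
    ⟪(‖w‖⁻¹ • w : E3), o + p.1 • e + p.2 • f⟫ + τ * ‖w‖, ?_⟩
  have hn : ‖w‖ ≠ 0 := norm_ne_zero_iff.2 hw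
  have h1 : τ • w = (τ * ‖w‖) • (‖w‖⁻¹ • w : E3) := by
    rw [smul_smul, mul_assoc, mul_inv_cancel₀ hn, mul_one]
  change _ = pmap (‖w‖⁻¹ • w) o e f p + _ • (‖w‖⁻¹ • w : E3)
  rw [pmap, projPerp, add_smul, ← h1]
  abel

def etaf (t : ℝ) : ℝ := 1 / 4 + (t - 1 / 2) ^ 2

def wL (ε t : ℝ) : E3 := !₂[ε * (2 * t - 1), 1 - ε * etaf t, 1 + ε * etaf t]
def wU (ε t : ℝ) : E3 := !₂[-(ε * (2 * t - 1)), -(1 + ε * etaf t), 1 - ε * etaf t]
def oL : E3 := !₂[1, 0, 0]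
def eL : E3 := !₂[-2, -1, 1]
def fL : E3 := !₂[0, 2, -2]
def oU : E3 := !₂[-1, 0, 0]
def eU : E3 := !₂[2, -1, -1]
def fU : E3 := !₂[0, 2, 2]

lemma wL_ne (ε t : ℝ) : wL ε t ≠ 0 := by
  intro h
  have h1 := congrArg (fun v : E3 => v 1) h
  have h2 := congrArg (fun v : E3 => v 2) h
  simp [wL] at h1 h2; linarith

lemma wU_ne (ε t : ℝ) : wU ε t ≠ 0 := by
  intro h
  have h1 := congrArg (fun v : E3 => v 1) h
  have h2 := congrArg (fun v : E3 => v 2) h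
  simp [wU] at h1 h2; linarith

lemma norm_wL_sq (ε t : ℝ) :
    ‖wL ε t‖ ^ 2 = 2 * (1 + ε ^ 2 * (etaf t ^ 2 + 2 * (t - 1 / 2) ^ 2)) := by
  rw [norm_sq_three]; simp [wL]; ring

lemma norm_wU (ε t : ℝ) : ‖wU ε t‖ = ‖wL ε t‖ := by
  rw [← sq_eq_sq₀ (norm_nonneg _) (norm_nonneg _), norm_sq_three, norm_sq_three]
  simp [wL, wU]; ring

def sec (ε K t Δ : ℝ) : Set (ℝ × ℝ) := tri (-3 * Δ) (Rtop ε K t + 3 * Δ) (t + Δ / 2) (Δ / 2)

lemma isCompact_sec (ε K t Δ : ℝ) : IsCompact (sec ε K t Δ) := isCompact_tri _ _ _ _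

def cylL (ε K t Δ : ℝ) : Cylinder :=
  mkCyl oL eL fL (wL ε t) (wL_ne ε t) (sec ε K t Δ) (isCompact_sec ε K t Δ)
def cylU (ε K t Δ : ℝ) : Cylinder :=
  mkCyl oU eU fU (wU ε t) (wU_ne ε t) (sec ε K t Δ) (isCompact_sec ε K t Δ)

def aval (ε K t Δ : ℝ) : ℝ := 4 * Δ * (Rtop ε K t + 6 * Δ) ^ 2 / ‖wL ε t‖

lemma Rtop_pos {ε K : ℝ} (hK : 0 ≤ K) (t : ℝ) : 0 < Rtop ε K t := by
  unfold Rtop; positivity

lemma volume_sec {ε K Δ : ℝ} (hK : 0 ≤ K) (hΔ : 0 ≤ Δ) (t : ℝ) :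
    volume (sec ε K t Δ) = ENNReal.ofReal (Δ / 2 * (Rtop ε K t + 6 * Δ) ^ 2) := by
  rw [sec, volume_tri (by linarith [Rtop_pos (ε := ε) hK t]) (by linarith)]
  congr 1; ring

lemma area_cylL {ε K Δ : ℝ} (hK : 0 ≤ K) (hΔ : 0 ≤ Δ) (t : ℝ) :
    (cylL ε K t Δ).area = ENNReal.ofReal (aval ε K t Δ) := by
  rw [cylL, mkCyl_area, volume_sec hK hΔ, ← ENNReal.ofReal_mul (by positivity)]
  have : det3 eL fL (wL ε t) = -8 := by simp [det3, eL, fL, wL]; ring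
  rw [this, aval]; congr 1; norm_num; ring

lemma area_cylU {ε K Δ : ℝ} (hK : 0 ≤ K) (hΔ : 0 ≤ Δ) (t : ℝ) :
    (cylU ε K t Δ).area = ENNReal.ofReal (aval ε K t Δ) := by
  rw [cylU, mkCyl_area, volume_sec hK hΔ, ← ENNReal.ofReal_mul (by positivity)]
  have : det3 eU fU (wU ε t) = 8 := by simp [det3, eU, fU, wU]; ring
  rw [this, aval, norm_wU]; congr 1; norm_num; ring

def pval (ε t : ℝ) : ℝ := 4 * (1 + ε * etaf t) / ‖wL ε t‖

lemma etaf_pos (t : ℝ) : 0 < etaf t := by unfold etaf; positivity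

lemma proj_cylL {ε : ℝ} (hε : 0 < ε) (hε1 : ε ≤ 1) (K Δ : ℝ) {t : ℝ} (ht0 : 0 ≤ t) :
    ENNReal.ofReal (pval ε t) ≤ projArea tet (cylL ε K t Δ).dir := by
  have hn : 0 < ‖wL ε t‖ := norm_pos_iff.2 (wL_ne ε t)
  have he := etaf_pos t
  refine le_trans (le_of_eq ?_) (pair_ad (u := ‖wL ε t‖⁻¹ • wL ε t) (norm_unit (wL_ne ε t)) ?_)
  · congr 1
    have : (‖wL ε t‖⁻¹ • wL ε t) 2 = ‖wL ε t‖⁻¹ * (1 + ε * etaf t) := by
      rw [PiLp.smul_apply]; simp [wL]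
    rw [this, abs_of_nonneg (by positivity), pval]; ring
  · have h0 : (wL ε t) 0 = ε * (2 * t - 1) := by simp [wL]
    have h1 : (wL ε t) 1 = 1 - ε * etaf t := by simp [wL]
    have h2 : (wL ε t) 2 = 1 + ε * etaf t := by simp [wL]
    simp only [PiLp.smul_apply, smul_eq_mul, h0, h1, h2]
    generalize ‖wL ε t‖⁻¹ = n
    have : (n * (ε * (2 * t - 1)) + n * (1 - ε * etaf t) + n * (1 + ε * etaf t)) *
      (-(n * (ε * (2 * t - 1))) - n * (1 - ε * etaf t) + n * (1 + ε * etaf t))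
      = n ^ 2 * ((2 + ε * (2 * t - 1)) * (2 * ε * (1 - t) ^ 2)) := by unfold etaf; ring
    rw [this]
    have : 0 ≤ 2 + ε * (2 * t - 1) := by nlinarith
    positivity

lemma proj_cylU {ε : ℝ} (hε : 0 < ε) (hε1 : ε ≤ 1) (K Δ : ℝ) {t : ℝ} (ht1 : t ≤ 1) :
    ENNReal.ofReal (pval ε t) ≤ projArea tet (cylU ε K t Δ).dir := by
  have hn : 0 < ‖wU ε t‖ := norm_pos_iff.2 (wU_ne ε t)
  have he := etaf_pos t
  refine le_trans (le_of_eq ?_) (pair_ac (u := ‖wU ε t‖⁻¹ • wU ε t) (norm_unit (wU_ne ε t)) ?_)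
  · congr 1
    have : (‖wU ε t‖⁻¹ • wU ε t) 1 = -(‖wU ε t‖⁻¹ * (1 + ε * etaf t)) := by
      rw [PiLp.smul_apply]; simp [wU]; ring
    rw [this, abs_neg, abs_of_nonneg (by positivity), pval, norm_wU]; ring
  · have h0 : (wU ε t) 0 = -(ε * (2 * t - 1)) := by simp [wU]
    have h1 : (wU ε t) 1 = -(1 + ε * etaf t) := by simp [wU]
    have h2 : (wU ε t) 2 = 1 - ε * etaf t := by simp [wU]
    simp only [PiLp.smul_apply, smul_eq_mul, h0, h1, h2]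
    generalize ‖wU ε t‖⁻¹ = n
    have : (n * -(ε * (2 * t - 1)) + n * -(1 + ε * etaf t) + n * (1 - ε * etaf t)) *
      (-(n * -(ε * (2 * t - 1))) + n * -(1 + ε * etaf t) - n * (1 - ε * etaf t))
      = n ^ 2 * ((2 - ε * (2 * t - 1)) * (2 * ε * t ^ 2)) := by unfold etaf; ring
    rw [this]
    have : 0 ≤ 2 - ε * (2 * t - 1) := by nlinarith
    positivity

lemma abs_half_le {ε a b : ℝ} (hε : 0 < ε) (hε1 : ε ≤ 1) (ha : 0 ≤ a) (hb : 0 ≤ b)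
    (hab : a + b ≤ 1) : |ε * ((b - a) / 2)| ≤ 1 / 2 := by
  rw [abs_le]; constructor <;> nlinarith

lemma cover {ε K : ℝ} (hε : 0 < ε) (hε1 : ε ≤ 1) (hK1 : 1 ≤ K) (hK2 : K ≤ 2)
    (hK : 9 * ε ^ 2 / 32 ≤ (K - 1) * (1 - ε / 2)) {N : ℕ} (hN : 0 < N) {p : E3} (hp : p ∈ tet) :
    (∃ i : Fin N, p ∈ (cylL ε K ((i : ℝ) / N) (1 / N)).carrier) ∨
      ∃ i : Fin N, p ∈ (cylU ε K ((i : ℝ) / N) (1 / N)).carrier := by
  obtain ⟨h1, h2, h3, h4⟩ := mem_tet hp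
  obtain ⟨a, ha⟩ : ∃ a, a = (1 + p 0 + p 1 + p 2) / 4 := ⟨_, rfl⟩
  obtain ⟨b, hb⟩ : ∃ b, b = (1 + p 0 - p 1 - p 2) / 4 := ⟨_, rfl⟩
  obtain ⟨c, hc⟩ : ∃ c, c = (1 - p 0 + p 1 - p 2) / 4 := ⟨_, rfl⟩
  obtain ⟨d, hd⟩ : ∃ d, d = (1 - p 0 - p 1 + p 2) / 4 := ⟨_, rfl⟩
  have a0 : 0 ≤ a := by linarith
  have b0 : 0 ≤ b := by linarith
  have c0 : 0 ≤ c := by linarith
  have d0 : 0 ≤ d := by linarith
  have hsum : a + b + c + d = 1 := by linarith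
  have p0 : p 0 = a + b - c - d := by linarith
  have p1 : p 1 = a - b + c - d := by linarith
  have p2 : p 2 = a - b - c + d := by linarith
  obtain ⟨s, r, hs0, hs1, hr, ec, ed⟩ := exists_param (ε * ((b - a) / 2)) c0 d0
  obtain ⟨s', r', hs0', hs1', hr', ea, eb⟩ := exists_param (ε * ((c - d) / 2)) a0 b0
  rcases alternative hε hε1 hK1 hK hsum hs0 hs1 hs0' hs1' ec ed ea eb with h | h
  · left
    obtain ⟨i, hi1, hi2⟩ := exists_sector hN hs0 hs1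
    refine ⟨i, ?_⟩
    have ht0 : (0 : ℝ) ≤ (i : ℝ) / N := by positivity
    generalize (i : ℝ) / N = t at hi1 hi2 ht0 ⊢
    generalize (1 : ℝ) / N = Δ at hi2 ⊢
    have hm := sector (abs_half_le hε hε1 a0 b0 (by linarith)) hr
      (h.trans (Rtop_le hε hε1 hK1 hK2 ht0 hs1 hi1 hi2)) hi1 hi2
    have := mem_mkCyl oL eL fL (wL ε t) (wL_ne ε t) (sec ε K t Δ) (isCompact_sec ε K t Δ)
      (p := (r + 2 * (ε * ((b - a) / 2)) * (s - t),
        (r + 2 * (ε * ((b - a) / 2)) * (s - t)) * s - (ε * ((b - a) / 2)) * (s - t) ^ 2)) hm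
      (a - b)
    refine (congrArg (fun x => x ∈ (_ : Set E3)) ?_).mpr this
    ext j
    fin_cases j
    · simp [oL, eL, fL, wL, etaf]
      linear_combination p0 + hsum - 2 * ec - 2 * ed
    · simp [oL, eL, fL, wL, etaf]
      linear_combination p1 + ec - ed
    · simp [oL, eL, fL, wL, etaf]
      linear_combination p2 - ec + ed
  · right
    obtain ⟨i, hi1, hi2⟩ := exists_sector hN hs0' hs1'
    refine ⟨i, ?_⟩
    have ht0 : (0 : ℝ) ≤ (i : ℝ) / N := by positivity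
    generalize (i : ℝ) / N = t at hi1 hi2 ht0 ⊢
    generalize (1 : ℝ) / N = Δ at hi2 ⊢
    have hm := sector (abs_half_le hε hε1 d0 c0 (by linarith)) hr'
      (h.trans (Rtop_le hε hε1 hK1 hK2 ht0 hs1' hi1 hi2)) hi1 hi2
    have := mem_mkCyl oU eU fU (wU ε t) (wU_ne ε t) (sec ε K t Δ) (isCompact_sec ε K t Δ)
      (p := (r' + 2 * (ε * ((c - d) / 2)) * (s' - t),
        (r' + 2 * (ε * ((c - d) / 2)) * (s' - t)) * s' - (ε * ((c - d) / 2)) * (s' - t) ^ 2)) hm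
      (d - c)
    refine (congrArg (fun x => x ∈ (_ : Set E3)) ?_).mpr this
    ext j
    fin_cases j
    · simp [oU, eU, fU, wU, etaf]
      linear_combination p0 - hsum + 2 * ea + 2 * eb
    · simp [oU, eU, fU, wU, etaf]
      linear_combination p1 + ea - eb
    · simp [oU, eU, fU, wU, etaf]
      linear_combination p2 + ea - eb

/-- the family of `2N` cylinders -/
def fam (ε K : ℝ) (N : ℕ) : Fin (N + N) → Cylinder :=
  Fin.addCases (fun i : Fin N => cylL ε K ((i : ℝ) / N) (1 / N))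
    (fun i : Fin N => cylU ε K ((i : ℝ) / N) (1 / N))

lemma covers_fam {ε K : ℝ} (hε : 0 < ε) (hε1 : ε ≤ 1) (hK1 : 1 ≤ K) (hK2 : K ≤ 2)
    (hK : 9 * ε ^ 2 / 32 ≤ (K - 1) * (1 - ε / 2)) {N : ℕ} (hN : 0 < N) :
    Covers (fam ε K N) tet := by
  intro p hp
  rw [mem_iUnion]
  rcases cover hε hε1 hK1 hK2 hK hN hp with ⟨i, hi⟩ | ⟨i, hi⟩
  · exact ⟨Fin.castAdd N i, by simpa [fam] using hi⟩
  · exact ⟨Fin.natAdd N i, by simpa only [fam, Fin.addCases_right] using hi⟩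

lemma aval_nonneg {ε K Δ : ℝ} (hΔ : 0 ≤ Δ) (t : ℝ) : 0 ≤ aval ε K t Δ := by
  unfold aval; positivity

lemma totalArea_fam {ε K : ℝ} (hK : 0 ≤ K) (N : ℕ) :
    totalArea (fam ε K N) = ENNReal.ofReal (2 * ∑ i : Fin N, aval ε K ((i : ℝ) / N) (1 / N)) := by
  have hΔ : (0 : ℝ) ≤ 1 / N := by positivity
  rw [totalArea, Fin.sum_univ_add]
  simp only [fam, Fin.addCases_left, Fin.addCases_right, area_cylL hK hΔ, area_cylU hK hΔ]
  have h0 : 0 ≤ ∑ i : Fin N, aval ε K ((i : ℝ) / N) (1 / N) :=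
    Finset.sum_nonneg fun i _ => aval_nonneg hΔ _
  rw [← ENNReal.ofReal_sum_of_nonneg (fun i _ => aval_nonneg hΔ _), two_mul,
    ENNReal.ofReal_add h0 h0]

lemma relArea_fam {ε K : ℝ} (hε : 0 < ε) (hε1 : ε ≤ 1) (hK : 0 ≤ K) (N : ℕ) :
    relArea (fam ε K N) tet ≤ ENNReal.ofReal (2 * ∑ i : Fin N,
      (Rtop ε K ((i : ℝ) / N) + 6 * (1 / N)) ^ 2 / (1 + ε * etaf ((i : ℝ) / N)) * (1 / N)) := by
  have hΔ : (0 : ℝ) ≤ 1 / N := by positivity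
  have hq : ∀ t : ℝ, ENNReal.ofReal (aval ε K t (1 / N)) / ENNReal.ofReal (pval ε t)
      = ENNReal.ofReal ((Rtop ε K t + 6 * (1 / N)) ^ 2 / (1 + ε * etaf t) * (1 / N)) := by
    intro t
    have hn : 0 < ‖wL ε t‖ := norm_pos_iff.2 (wL_ne ε t)
    have he := etaf_pos t
    rw [← ENNReal.ofReal_div_of_pos (by unfold pval; positivity)]
    congr 1
    unfold aval pval
    field_simp
  have hnn : ∀ t : ℝ, 0 ≤ (Rtop ε K t + 6 * (1 / N)) ^ 2 / (1 + ε * etaf t) * (1 / N) := by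
    intro t
    have he := etaf_pos t
    positivity
  have h0 := Finset.sum_nonneg (s := Finset.univ) fun (i : Fin N) _ => hnn ((i : ℝ) / N)
  rw [relArea, Fin.sum_univ_add, two_mul, ENNReal.ofReal_add h0 h0,
    ENNReal.ofReal_sum_of_nonneg (fun i _ => hnn _)]
  simp only [fam, Fin.addCases_left, Fin.addCases_right, area_cylL hK hΔ, area_cylU hK hΔ]
  refine add_le_add (Finset.sum_le_sum fun i _ => ?_) (Finset.sum_le_sum fun i _ => ?_)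
  · rw [← hq]
    exact ENNReal.div_le_div_left (proj_cylL hε hε1 _ _ (by positivity)) _
  · rw [← hq]
    refine ENNReal.div_le_div_left (proj_cylU hε hε1 _ _ ?_) _
    have hi : ((i : ℕ) : ℝ) ≤ N := by exact_mod_cast i.2.le
    exact div_le_one_of_le₀ hi (by positivity)

lemma minArea_tet : minArea tet = ENNReal.ofReal (2 * √2) := by
  refine le_antisymm ?_ (le_iInf₂ fun u hu => le_projArea hu)
  refine (iInf₂_le (‖wL 0 0‖⁻¹ • wL 0 0) (norm_unit (wL_ne 0 0))).trans ?_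
  have hsub : projPerp (‖wL 0 0‖⁻¹ • wL 0 0) '' tet ⊆
      pmap (‖wL 0 0‖⁻¹ • wL 0 0) oL eL fL '' tri 0 1 (1 / 2) (1 / 2) := by
    rintro _ ⟨p, hp, rfl⟩
    obtain ⟨h1, h2, h3, h4⟩ := mem_tet hp
    refine ⟨((1 - p 0) / 2, (1 - p 0 + p 1 - p 2) / 4), mem_tri_std.2 ⟨?_, ?_, ?_⟩, ?_⟩
    · simp only; linarith
    · simp only; linarith
    · simp only; linarith
    have hn : ‖wL 0 0‖ ≠ 0 := norm_ne_zero_iff.2 (wL_ne 0 0)
    have e : p = (oL + ((1 - p 0) / 2) • eL + ((1 - p 0 + p 1 - p 2) / 4) • fL)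
        + (((p 1 + p 2) / 2) * ‖wL 0 0‖) • (‖wL 0 0‖⁻¹ • wL 0 0) := by
      rw [smul_smul, mul_assoc, mul_inv_cancel₀ hn, mul_one]
      ext j
      fin_cases j <;> simp [oL, eL, fL, wL] <;> ring
    conv_rhs => rw [e]
    have hu := norm_unit (wL_ne 0 0)
    generalize (‖wL 0 0‖⁻¹ • wL 0 0 : E3) = u at hu ⊢
    rw [pmap, projPerp, projPerp, inner_add_right (y := oL + _ + _), inner_smul_right,
      real_inner_self_eq_norm_sq, hu, add_smul]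
    simp only [one_pow, mul_one]
    abel
  refine (measure_mono hsub).trans (le_of_eq ?_)
  rw [volume_pmap_dir (wL_ne 0 0), volume_tri_std, ← ENNReal.ofReal_mul (by positivity)]
  have h1 : det3 eL fL (wL 0 0) = -8 := by simp [det3, eL, fL, wL]; ring
  have h2 : ‖wL 0 0‖ = √2 := by
    rw [← Real.sqrt_sq (norm_nonneg (wL 0 0)), norm_wL_sq]; norm_num
  rw [h1, h2]
  congr 1
  have h3 : √2 * √2 = 2 := Real.mul_self_sqrt (by norm_num)
  have h4 : √2 ≠ 0 := by positivity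
  field_simp
  norm_num

end Vale.Agent.P243
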