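import Vale.Agent.P243.Area

open MeasureTheory Set
open scoped ENNReal RealInnerProductSpace

noncomputable section

namespace Vale.Agent.P243

lemma det3_self (e u : E3) : det3 e u u = 0 := by unfold det3; ring

lemma proj_eq_iff {u x y : E3} (h : projPerp u x = projPerp u y) :
    ∃ t : ℝ, x = y + t • u := by
  refine ⟨⟪u, x⟫ - ⟪u, y⟫, ?_⟩
  unfold projPerp at h
  rw [sub_smul]
  linear_combination (norm := module) h

lemma mem_tri_std {p : ℝ × ℝ} :
    p ∈ tri 0 1 (1 / 2) (1 / 2) ↔ 0 ≤ p.2 ∧ p.2 ≤ p.1 ∧ p.1 ≤ 1 := by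
  simp only [tri, mem_ofPred_eq]
  constructor
  · rintro ⟨h1, h2, h3, h4⟩; exact ⟨by linarith, by linarith, h2⟩
  · rintro ⟨h1, h2, h3⟩; exact ⟨by linarith, h3, by linarith, by linarith⟩

lemma volume_tri_std : volume (tri 0 1 (1 / 2) (1 / 2)) = ENNReal.ofReal (1 / 2) := by
  rw [volume_tri zero_le_one (by norm_num)]; norm_num

lemma face_subset {K : Set E3} (hK : Convex ℝ K) {R S Q : E3} (hR : R ∈ K) (hS : S ∈ K)
    (hQ : Q ∈ K) (u : E3) :
    pmap u R (S - R) (Q - S) '' tri 0 1 (1 / 2) (1 / 2)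
      ⊆ projPerp u '' K := by
  rintro _ ⟨p, hp, rfl⟩
  obtain ⟨h1, h2, h3⟩ := mem_tri_std.1 hp
  refine ⟨_, ?_, rfl⟩
  have := hK.sum_mem (t := Finset.univ) (w := ![1 - p.1, p.1 - p.2, p.2]) (z := ![R, S, Q])
    (by intro i _; fin_cases i <;> simp <;> linarith) (by simp [Fin.sum_univ_three])
    (by intro i _; fin_cases i <;> simpa)
  convert this using 1
  simp only [Fin.sum_univ_three, Matrix.cons_val_zero, Matrix.cons_val_one, Matrix.cons_val]
  module

lemma two_faces {K : Set E3} (hK : Convex ℝ K) {R S P Q : E3} (hR : R ∈ K) (hS : S ∈ K)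
    (hP : P ∈ K) (hQ : Q ∈ K) {u : E3} (hu : ‖u‖ = 1)
    (hd : det3 (S - R) (Q - S) u * det3 (S - R) (P - S) u ≤ 0) :
    ENNReal.ofReal ((|det3 (S - R) (Q - S) u| + |det3 (S - R) (P - S) u|) / 2) ≤ projArea K u := by
  set d1 := det3 (S - R) (Q - S) u with hd1
  set d2 := det3 (S - R) (P - S) u with hd2
  have hsub := union_subset (face_subset hK hR hS hQ u) (face_subset hK hR hS hP u)
  refine le_trans (le_of_eq ?_) (measure_mono hsub)
  rw [measure_union₀]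
  · rw [volume_pmap hu, volume_pmap hu, volume_tri_std, ← hd1, ← hd2,
      ← ENNReal.ofReal_mul (abs_nonneg _), ← ENNReal.ofReal_mul (abs_nonneg _),
      ← ENNReal.ofReal_add (by positivity) (by positivity)]
    congr 1; ring
  · exact ((isCompact_tri _ _ _ _).image (continuous_pmap _ _ _ _)).measurableSet.nullMeasurableSet
  · have hs : pmap u R (S - R) (Q - S) '' tri 0 1 (1 / 2) (1 / 2) ∩
        pmap u R (S - R) (P - S) '' tri 0 1 (1 / 2) (1 / 2)
        ⊆ pmap u R (S - R) (Q - S) '' {p | p.2 * d1 = 0} := by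
      rintro _ ⟨⟨p, hp, rfl⟩, q, hq, hpq⟩
      refine ⟨p, ?_, rfl⟩
      obtain ⟨t, ht⟩ := proj_eq_iff hpq
      have e0 := congrArg (fun v : E3 => v 0) ht
      have e1 := congrArg (fun v : E3 => v 1) ht
      have e2 := congrArg (fun v : E3 => v 2) ht
      simp only [PiLp.add_apply, PiLp.smul_apply, smul_eq_mul] at e0 e1 e2
      have key : q.2 * d2 = p.2 * d1 := by
        rw [hd1, hd2]; unfold det3
        linear_combination ((S - R) 2 * u 1 - (S - R) 1 * u 2) * e0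
          + ((S - R) 0 * u 2 - (S - R) 2 * u 0) * e1 + ((S - R) 1 * u 0 - (S - R) 0 * u 1) * e2
      have hp2 := (mem_tri_std.1 hp).1
      have hq2 := (mem_tri_std.1 hq).1
      have h3 : (p.2 * d1) ^ 2 ≤ 0 := by
        have : (p.2 * d1) ^ 2 = (p.2 * q.2) * (d1 * d2) := by
          rw [sq]; nth_rewrite 2 [← key]; ring
        rw [this]; exact mul_nonpos_of_nonneg_of_nonpos (mul_nonneg hp2 hq2) hd
      exact pow_eq_zero_iff (two_ne_zero) |>.1 (le_antisymm h3 (sq_nonneg _))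
    refine measure_mono_null hs ?_
    rw [volume_pmap hu, ← hd1]
    by_cases h0 : d1 = 0
    · simp [h0]
    · have : {p : ℝ × ℝ | p.2 * d1 = 0} = univ ×ˢ {0} := by
        ext p; simp [h0]
      rw [this, Measure.volume_eq_prod, Measure.prod_prod]; simp

def vA : E3 := !₂[1, 1, 1]
def vB : E3 := !₂[1, -1, -1]
def vC : E3 := !₂[-1, 1, -1]
def vD : E3 := !₂[-1, -1, 1]

lemma convex_tet : Convex ℝ tet := convex_convexHull ℝ _
lemma vA_mem : vA ∈ tet := subset_convexHull ℝ _ (by simp [vA])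
lemma vB_mem : vB ∈ tet := subset_convexHull ℝ _ (by simp [vB])
lemma vC_mem : vC ∈ tet := subset_convexHull ℝ _ (by simp [vC])
lemma vD_mem : vD ∈ tet := subset_convexHull ℝ _ (by simp [vD])

lemma mem_tet {p : E3} (hp : p ∈ tet) :
    0 ≤ 1 + p 0 + p 1 + p 2 ∧ 0 ≤ 1 + p 0 - p 1 - p 2 ∧ 0 ≤ 1 - p 0 + p 1 - p 2 ∧
      0 ≤ 1 - p 0 - p 1 + p 2 := by
  have hc : Convex ℝ {p : E3 | 0 ≤ 1 + p 0 + p 1 + p 2 ∧ 0 ≤ 1 + p 0 - p 1 - p 2 ∧
      0 ≤ 1 - p 0 + p 1 - p 2 ∧ 0 ≤ 1 - p 0 - p 1 + p 2} := by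
    intro x ⟨x1, x2, x3, x4⟩ y ⟨y1, y2, y3, y4⟩ a b ha hb hab
    simp only [mem_ofPred_eq, PiLp.add_apply, PiLp.smul_apply, smul_eq_mul]
    refine ⟨?_, ?_, ?_, ?_⟩
    · nlinarith [mul_nonneg ha x1, mul_nonneg hb y1]
    · nlinarith [mul_nonneg ha x2, mul_nonneg hb y2]
    · nlinarith [mul_nonneg ha x3, mul_nonneg hb y3]
    · nlinarith [mul_nonneg ha x4, mul_nonneg hb y4]
  refine convexHull_min ?_ hc hp
  intro x hx
  simp only [mem_insert_iff, mem_singleton_iff] at hx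
  rcases hx with rfl | rfl | rfl | rfl <;> simp <;> norm_num

lemma mem_tet_of {p : E3} (h1 : 0 ≤ 1 + p 0 + p 1 + p 2) (h2 : 0 ≤ 1 + p 0 - p 1 - p 2)
    (h3 : 0 ≤ 1 - p 0 + p 1 - p 2) (h4 : 0 ≤ 1 - p 0 - p 1 + p 2) : p ∈ tet := by
  have := convex_tet.sum_mem (t := Finset.univ)
    (w := ![(1 + p 0 + p 1 + p 2) / 4, (1 + p 0 - p 1 - p 2) / 4, (1 - p 0 + p 1 - p 2) / 4,
      (1 - p 0 - p 1 + p 2) / 4]) (z := ![vA, vB, vC, vD])
    (by intro i _; fin_cases i <;> simp <;> linarith) (by simp [Fin.sum_univ_four]; ring)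
    (by intro i _; fin_cases i <;> simp [vA_mem, vB_mem, vC_mem, vD_mem])
  convert this using 1
  ext i
  fin_cases i <;> simp [Fin.sum_univ_four, vA, vB, vC, vD] <;> ring

lemma isConvexBody_tet : IsConvexBody tet := by
  refine ⟨(toFinite _).isCompact_convexHull ℝ, convex_tet, 0, ?_⟩
  rw [mem_interior_iff_mem_nhds, Metric.mem_nhds_iff]
  refine ⟨1 / 3, by norm_num, fun p hp => ?_⟩
  rw [mem_ball_zero_iff] at hp
  have h : ∀ i, |p i| ≤ 1 / 3 := fun i => (PiLp.norm_apply_le p i).trans hp.le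
  have h0 := abs_le.1 (h 0)
  have h1 := abs_le.1 (h 1)
  have h2 := abs_le.1 (h 2)
  apply mem_tet_of <;> linarith [h0.1, h0.2, h1.1, h1.2, h2.1, h2.2]

lemma abs_add_of_mul_nonneg {a b : ℝ} (h : 0 ≤ a * b) : |a| + |b| = |a + b| := by
  rcases mul_nonneg_iff.1 h with ⟨h1, h2⟩ | ⟨h1, h2⟩
  · rw [abs_of_nonneg h1, abs_of_nonneg h2, abs_of_nonneg (add_nonneg h1 h2)]
  · rw [abs_of_nonpos h1, abs_of_nonpos h2, abs_of_nonpos (add_nonpos h1 h2)]; ring

lemma pair_aux {u : E3} {d1 d2 a b x : ℝ} (h1 : d1 = 4 * a) (h2 : d2 = -(4 * b))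
    (hx : a + b = 2 * x) (hab : 0 ≤ a * b)
    (H : d1 * d2 ≤ 0 → ENNReal.ofReal ((|d1| + |d2|) / 2) ≤ projArea tet u) :
    ENNReal.ofReal (4 * |x|) ≤ projArea tet u := by
  refine le_trans (le_of_eq ?_) (H (by rw [h1, h2]; nlinarith))
  congr 1
  rw [h1, h2, abs_neg, abs_mul, abs_mul, ← mul_add, abs_add_of_mul_nonneg hab, hx, abs_mul]
  norm_num; ring

lemma pair_ab {u : E3} (hu : ‖u‖ = 1) (h : 0 ≤ (u 0 + u 1 + u 2) * (u 0 - u 1 - u 2)) :
    ENNReal.ofReal (4 * |u 0|) ≤ projArea tet u :=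
  pair_aux (by simp [det3, vB, vC, vD]; ring) (by simp [det3, vA, vC, vD]; ring) (by ring) h
    (two_faces convex_tet vC_mem vD_mem vA_mem vB_mem hu)

lemma pair_ac {u : E3} (hu : ‖u‖ = 1) (h : 0 ≤ (u 0 + u 1 + u 2) * (-u 0 + u 1 - u 2)) :
    ENNReal.ofReal (4 * |u 1|) ≤ projArea tet u :=
  pair_aux (by simp [det3, vB, vC, vD]; ring) (by simp [det3, vA, vB, vD]; ring) (by ring) h
    (two_faces convex_tet vD_mem vB_mem vA_mem vC_mem hu)

lemma pair_ad {u : E3} (hu : ‖u‖ = 1) (h : 0 ≤ (u 0 + u 1 + u 2) * (-u 0 - u 1 + u 2)) :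
    ENNReal.ofReal (4 * |u 2|) ≤ projArea tet u :=
  pair_aux (by simp [det3, vB, vC, vD]; ring) (by simp [det3, vA, vB, vC]; ring) (by ring) h
    (two_faces convex_tet vB_mem vC_mem vA_mem vD_mem hu)

lemma one_face {R S Q : E3} (hR : R ∈ tet) (hS : S ∈ tet) (hQ : Q ∈ tet) {u : E3} (hu : ‖u‖ = 1)
    {a : ℝ} (ha : det3 (S - R) (Q - S) u = 4 * a) :
    ENNReal.ofReal (2 * |a|) ≤ projArea tet u := by
  have h0 : det3 (S - R) (S - S) u = 0 := by simp [det3]
  have := two_faces convex_tet hR hS hS hQ hu (by rw [h0]; simp)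
  rw [h0, ha, abs_mul] at this
  refine le_trans (le_of_eq ?_) this
  congr 1; norm_num; ring

lemma sign_cases {a b c d : ℝ} (hs : a + b + c + d = 0) (hq : a ^ 2 + b ^ 2 + c ^ 2 + d ^ 2 = 4) :
    2 ≤ a ^ 2 ∨ 2 ≤ b ^ 2 ∨ 2 ≤ c ^ 2 ∨ 2 ≤ d ^ 2 ∨ (0 ≤ a * b ∧ 2 ≤ (a + b) ^ 2) ∨
      (0 ≤ a * c ∧ 2 ≤ (a + c) ^ 2) ∨ (0 ≤ a * d ∧ 2 ≤ (a + d) ^ 2) := by
  have one : ∀ x y z w : ℝ, x + y + z + w = 0 → x ^ 2 + y ^ 2 + z ^ 2 + w ^ 2 = 4 →
      0 ≤ y * z → 0 ≤ y * w → 0 ≤ z * w → 2 ≤ x ^ 2 := by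
    intro x y z w h1 h2 h3 h4 h5
    have : x = -(y + z + w) := by linarith
    subst this; nlinarith
  have two : ∀ x y z w : ℝ, x + y + z + w = 0 → x ^ 2 + y ^ 2 + z ^ 2 + w ^ 2 = 4 →
      0 ≤ x * y → 0 ≤ z * w → 0 ≤ x * y ∧ 2 ≤ (x + y) ^ 2 := by
    intro x y z w h1 h2 h3 h4
    refine ⟨h3, ?_⟩
    have : (x + y) ^ 2 = (z + w) ^ 2 := by
      have : x + y = -(z + w) := by linarith
      rw [this]; ring
    nlinarith
  rcases le_total 0 a with ha | ha <;> rcases le_total 0 b with hb | hb <;>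
    rcases le_total 0 c with hc | hc <;> rcases le_total 0 d with hd | hd
  all_goals first
    | exact Or.inl (one a b c d hs hq (by first | positivity | exact mul_nonneg_of_nonpos_of_nonpos ‹_› ‹_›) (by first | positivity | exact mul_nonneg_of_nonpos_of_nonpos ‹_› ‹_›) (by first | positivity | exact mul_nonneg_of_nonpos_of_nonpos ‹_› ‹_›))
    | exact Or.inr (Or.inl (one b a c d (by linarith) (by linarith) (by first | positivity | exact mul_nonneg_of_nonpos_of_nonpos ‹_› ‹_›) (by first | positivity | exact mul_nonneg_of_nonpos_of_nonpos ‹_› ‹_›) (by first | positivity | exact mul_nonneg_of_nonpos_of_nonpos ‹_› ‹_›)))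
    | exact Or.inr (Or.inr (Or.inl (one c a b d (by linarith) (by linarith) (by first | positivity | exact mul_nonneg_of_nonpos_of_nonpos ‹_› ‹_›) (by first | positivity | exact mul_nonneg_of_nonpos_of_nonpos ‹_› ‹_›) (by first | positivity | exact mul_nonneg_of_nonpos_of_nonpos ‹_› ‹_›))))
    | exact Or.inr (Or.inr (Or.inr (Or.inl (one d a b c (by linarith) (by linarith) (by first | positivity | exact mul_nonneg_of_nonpos_of_nonpos ‹_› ‹_›) (by first | positivity | exact mul_nonneg_of_nonpos_of_nonpos ‹_› ‹_›) (by first | positivity | exact mul_nonneg_of_nonpos_of_nonpos ‹_› ‹_›)))))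
    | exact Or.inr (Or.inr (Or.inr (Or.inr (Or.inl (two a b c d hs hq (by first | positivity | exact mul_nonneg_of_nonpos_of_nonpos ‹_› ‹_›) (by first | positivity | exact mul_nonneg_of_nonpos_of_nonpos ‹_› ‹_›))))))
    | exact Or.inr (Or.inr (Or.inr (Or.inr (Or.inr (Or.inl (two a c b d (by linarith) (by linarith) (by first | positivity | exact mul_nonneg_of_nonpos_of_nonpos ‹_› ‹_›) (by first | positivity | exact mul_nonneg_of_nonpos_of_nonpos ‹_› ‹_›)))))))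
    | exact Or.inr (Or.inr (Or.inr (Or.inr (Or.inr (Or.inr (two a d b c (by linarith) (by linarith) (by first | positivity | exact mul_nonneg_of_nonpos_of_nonpos ‹_› ‹_›) (by first | positivity | exact mul_nonneg_of_nonpos_of_nonpos ‹_› ‹_›)))))))

lemma sqrt_two_le {x : ℝ} (h : 2 ≤ x ^ 2) : √2 ≤ |x| := by
  rw [← Real.sqrt_sq_eq_abs]; exact Real.sqrt_le_sqrt h

lemma le_projArea {u : E3} (hu : ‖u‖ = 1) : ENNReal.ofReal (2 * √2) ≤ projArea tet u := by
  have hn := norm_sq_three u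
  rw [hu] at hn
  rcases sign_cases (a := u 0 + u 1 + u 2) (b := u 0 - u 1 - u 2) (c := -u 0 + u 1 - u 2)
    (d := -u 0 - u 1 + u 2) (by ring) (by linear_combination (-4) * hn) with
    h | h | h | h | ⟨h1, h⟩ | ⟨h1, h⟩ | ⟨h1, h⟩
  · refine le_trans (ENNReal.ofReal_le_ofReal ?_) (one_face vC_mem vD_mem vB_mem hu
      (a := u 0 + u 1 + u 2) (by simp [det3, vB, vC, vD]; ring))
    linarith [sqrt_two_le h]
  · refine le_trans (ENNReal.ofReal_le_ofReal ?_) (one_face vD_mem vC_mem vA_mem hu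
      (a := u 0 - u 1 - u 2) (by simp [det3, vA, vC, vD]; ring))
    linarith [sqrt_two_le h]
  · refine le_trans (ENNReal.ofReal_le_ofReal ?_) (one_face vB_mem vD_mem vA_mem hu
      (a := -u 0 + u 1 - u 2) (by simp [det3, vA, vB, vD]; ring))
    linarith [sqrt_two_le h]
  · refine le_trans (ENNReal.ofReal_le_ofReal ?_) (one_face vC_mem vB_mem vA_mem hu
      (a := -u 0 - u 1 + u 2) (by simp [det3, vA, vB, vC]; ring))
    linarith [sqrt_two_le h]
  · refine le_trans (ENNReal.ofReal_le_ofReal ?_) (pair_ab hu h1)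
    have := sqrt_two_le h
    rw [show u 0 + u 1 + u 2 + (u 0 - u 1 - u 2) = 2 * u 0 by ring, abs_mul] at this
    norm_num at this; linarith
  · refine le_trans (ENNReal.ofReal_le_ofReal ?_) (pair_ac hu h1)
    have := sqrt_two_le h
    rw [show u 0 + u 1 + u 2 + (-u 0 + u 1 - u 2) = 2 * u 1 by ring, abs_mul] at this
    norm_num at this; linarith
  · refine le_trans (ENNReal.ofReal_le_ofReal ?_) (pair_ad hu h1)
    have := sqrt_two_le h
    rw [show u 0 + u 1 + u 2 + (-u 0 - u 1 + u 2) = 2 * u 2 by ring, abs_mul] at this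
    norm_num at this; linarith

end Vale.Agent.P243
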